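import Mathlib
import Crest.Agent.RS.Defs

/-! Chunk R153H-NM: the minimal number of violated clauses. -/

set_option autoImplicit false

namespace Crest.Agent.RS

open Finset Crest.ProbabilityR.RandomSAT

/-- minimal number of violated clauses -/
noncomputable def Nm {n : ℕ} (F : List (GC n)) : ℕ := sInf {l : ℕ | Alive l F}

theorem alive_Nm {n : ℕ} (F : List (GC n)) : Alive (Nm F) F :=
  Nat.sInf_mem (s := {l : ℕ | Alive l F}) ⟨F.length, fun _ => true, viol_le_length _ _⟩

theorem Nm_le_viol {n : ℕ} (F : List (GC n)) (σ : Fin n → Bool) : Nm F ≤ viol F σ :=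
  Nat.sInf_le ⟨σ, le_rfl⟩

theorem exists_viol_eq_Nm {n : ℕ} (F : List (GC n)) : ∃ σ, viol F σ = Nm F := by
  obtain ⟨σ, hσ⟩ := alive_Nm F
  exact ⟨σ, le_antisymm hσ (Nm_le_viol F σ)⟩

theorem Nm_le_iff {n : ℕ} (F : List (GC n)) (l : ℕ) : Nm F ≤ l ↔ Alive l F := by
  constructor
  · intro h
    obtain ⟨σ, hσ⟩ := alive_Nm F
    exact ⟨σ, hσ.trans h⟩
  · intro h
    exact Nat.sInf_le h

theorem Nm_mono {n : ℕ} {F G : List (GC n)} (h : F.Sublist G) : Nm F ≤ Nm G := by
  rw [Nm_le_iff]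
  exact (alive_Nm G).of_sublist h

theorem Nm_perm {n : ℕ} {F G : List (GC n)} (h : F.Perm G) : Nm F = Nm G := by
  apply le_antisymm
  · rw [Nm_le_iff]
    exact (alive_Nm G).of_perm h
  · rw [Nm_le_iff]
    exact (alive_Nm F).of_perm h.symm

theorem Nm_append_le {n : ℕ} (F G : List (GC n)) : Nm (F ++ G) ≤ Nm F + G.length := by
  obtain ⟨σ, hσ⟩ := exists_viol_eq_Nm F
  refine (Nm_le_viol _ σ).trans ?_
  rw [viol_append, hσ]
  exact Nat.add_le_add_left (viol_le_length _ _) _

theorem Nm_le_length {n : ℕ} (F : List (GC n)) : Nm F ≤ F.length :=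
  (Nm_le_viol F (fun _ => true)).trans (viol_le_length _ _)

/-- expected minimal number of violated clauses of `m` uniform clauses with distinct variables -/
noncomputable def eN (n m : ℕ) : ℝ :=
  lavg (Clause 3 n) m (fun L => ((Nm (L.map toGC) : ℕ) : ℝ))

theorem eN_nonneg (n m : ℕ) : 0 ≤ eN n m := lavg_nonneg fun _ => Nat.cast_nonneg _

theorem eN_le (n m : ℕ) (h : 3 ≤ n) : eN n m ≤ m := by
  have := nonempty_clause h
  refine lavg_le_const fun L hL => ?_
  have h1 := Nm_le_length (L.map toGC)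
  rw [List.length_map, hL] at h1
  exact_mod_cast h1

/-- `eN n ·` is nondecreasing (`lavg_take`, `Nm_mono`). -/
theorem eN_mono {n m m' : ℕ} (h : 3 ≤ n) (hm : m ≤ m') : eN n m ≤ eN n m' := by
  have := nonempty_clause h
  unfold eN
  rw [← lavg_take hm]
  refine lavg_mono fun L => ?_
  have : Nm ((L.take m).map toGC) ≤ Nm (L.map toGC) :=
    Nm_mono ((List.take_sublist m L).map toGC)
  exact_mod_cast this

end Crest.Agent.RS
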