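import Mathlib
import Crest.Agent.RH.Nm
import Crest.Agent.MP.Defs
import Crest.Agent.MP.UDefs

/-!
Row 153, S0218, upper side: the 3-SAT interaction law for the Mezard-Parisi formula (rows 141/153).
-/

set_option autoImplicit false

namespace Crest.Agent.RS

open Finset Crest.ProbabilityR.RandomSAT Crest.ProbabilityR.Diluted Crest.Agent.MP

/-- The factorised law of 3-SAT with weight `t = e^{-β}` of a violated clause:
`e^θ = 1 + (t-1) Π_ℓ 1(s_ℓ = e_ℓ)`, `e` uniform. -/
noncomputable def satFact (t : ℝ) (ht : 0 < t) (ht1 : t < 1) : FactLaw 3 where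
  b := ⟨Unit, inferInstance, fun _ => 1, fun _ => t - 1, fun _ => zero_le_one, by simp⟩
  f := ⟨Bool, inferInstance, fun _ => 1 / 2, fun e s => if s = e then 1 else 0,
    fun _ => by norm_num, by simp⟩
  δ := t
  δ_pos := ht
  bound := by
    intro i j s
    have h1 : |∏ ℓ, (if s ℓ = j ℓ then (1 : ℝ) else 0)| ≤ 1 := by
      rw [Finset.abs_prod]
      refine Finset.prod_le_one (fun _ _ => abs_nonneg _) fun _ _ => ?_
      split_ifs <;> simp
    rw [abs_mul]
    have h2 : |t - 1| = 1 - t := by rw [abs_of_neg (by linarith)]; ring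
    rw [h2]
    nlinarith [abs_nonneg (∏ ℓ, (if s ℓ = j ℓ then (1 : ℝ) else 0))]
  moment := by
    intro n _
    simp only [FinLaw.E, Finset.univ_unique, Finset.sum_singleton, one_mul]
    exact pow_nonneg (by linarith) _

/-- no external field -/
noncomputable def nu0 : FinLaw ℝ :=
  ⟨Unit, inferInstance, fun _ => 1, fun _ => 0, fun _ => zero_le_one, by simp⟩

/-- clauses with replacement: three variables (not necessarily distinct) and three required values -/
abbrev RC (N : ℕ) : Type := (Fin 3 → Fin N) × (Fin 3 → Bool)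

/-- as a general clause -/
def rGC {N : ℕ} (x : RC N) : GC N := List.ofFn (fun i => (x.1 i, x.2 i))

/-- expected minimal number of violated clauses for Poisson(`c N`) clauses with replacement -/
noncomputable def EN (c : ℝ) (N : ℕ) : ℝ :=
  ∑' M : ℕ, poissonWeight (c * N) M * lavg (RC N) M (fun L => ((Nm (L.map rGC) : ℕ) : ℝ))

end Crest.Agent.RS
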