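import Mathlib
import Crest.Agent.RS.Core
import Crest.Agent.RS.Tau
import Crest.Agent.RS.Incr

/-! Chunk R153H-GAP: the level `Λ` is reached quickly after unsatisfiability. -/

set_option autoImplicit false

namespace Crest.Agent.RS

open Finset Crest.ProbabilityR.RandomSAT

private theorem sum_inv_sqrt (Λ : ℕ) :
    ∑ l ∈ range Λ, 1 / Real.sqrt ((l : ℝ) + 1) ≤ 2 * Real.sqrt Λ := by
  induction Λ with
  | zero => simp
  | succ Λ ih =>
    rw [Finset.sum_range_succ]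
    push_cast
    set a := Real.sqrt (Λ : ℝ) with ha
    set b := Real.sqrt ((Λ : ℝ) + 1) with hb
    have ha0 : 0 ≤ a := Real.sqrt_nonneg _
    have hb0 : 0 < b := Real.sqrt_pos.2 (by positivity)
    have ha2 : a ^ 2 = Λ := Real.sq_sqrt (by positivity)
    have hb2 : b ^ 2 = (Λ : ℝ) + 1 := Real.sq_sqrt (by positivity)
    have h1 : 1 / b ≤ 2 * b - 2 * a := by
      rw [div_le_iff₀ hb0]
      nlinarith [sq_nonneg (a - b)]
    linarith

/-- Sum `tau_le` (`κ = 2`, `n = n'+1`) over the levels `l < Λ` with `core` and Cauchy-Schwarz (`lavg_sq_le`):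
`lavg (hit (l+1) - hit l) ≤ sqrt (M C/(l+1))`, `Σ_{l<Λ} 1/sqrt(l+1) ≤ 2 sqrt Λ`. -/
theorem gap_le (C0 : ℝ) (hC0 : 0 ≤ C0) : ∃ C : ℝ, 0 ≤ C ∧ ∀ n M Λ : ℕ, 3 ≤ n → (M : ℝ) ≤ C0 * n →
    lavg (Clause 3 n) M (fun L => ((hit Λ L M : ℕ) : ℝ) - ((hit 0 L M : ℕ) : ℝ)) ≤
      C * Real.sqrt ((n : ℝ) * Λ) := by
  obtain ⟨C, hC⟩ := core 2 le_rfl C0
  set K : ℝ := C0 * max C 0 with hK
  have hK0 : 0 ≤ K := mul_nonneg hC0 (le_max_right _ _)
  refine ⟨2 * Real.sqrt K, by positivity, fun n M Λ hn hM => ?_⟩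
  obtain ⟨n', rfl⟩ : ∃ n', n = n' + 1 := ⟨n - 1, by omega⟩
  set N : ℝ := ((n' + 1 : ℕ) : ℝ) with hN
  have hN0 : 0 ≤ N := Nat.cast_nonneg _
  have hM' : (M : ℝ) ≤ C0 * ((n' : ℝ) + 1) := by
    rw [hN] at hM
    push_cast at hM
    exact hM
  have hstep : ∀ l : ℕ, lavg (Clause 3 (n' + 1)) M
      (fun L => ((hit (l + 1) L M : ℕ) : ℝ) - ((hit l L M : ℕ) : ℝ)) ≤
      Real.sqrt (K * N) * (1 / Real.sqrt ((l : ℝ) + 1)) := by
    intro l
    have h1 := tau_le (κ := 2) (n := n') (by omega) l M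
    have h2 : Vq 2 n' 0 M l ≤ max C 0 := (hC n' M l hM').trans (le_max_left _ _)
    have h3 := lavg_sq_le M (fun L : List (Clause 3 (n' + 1)) =>
      ((hit (l + 1) L M : ℕ) : ℝ) - ((hit l L M : ℕ) : ℝ))
    set x := lavg (Clause 3 (n' + 1)) M
      (fun L => ((hit (l + 1) L M : ℕ) : ℝ) - ((hit l L M : ℕ) : ℝ)) with hx
    have hl : (0 : ℝ) < (l : ℝ) + 1 := by positivity
    have h4 : ((l : ℝ) + 1) * x ^ 2 ≤ K * N := by
      calc ((l : ℝ) + 1) * x ^ 2 ≤ ((l : ℝ) + 1) * lavg (Clause 3 (n' + 1)) M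
            (fun L => (((hit (l + 1) L M : ℕ) : ℝ) - ((hit l L M : ℕ) : ℝ)) ^ 2) := by
            gcongr
        _ ≤ (M : ℝ) * Vq 2 n' 0 M l := h1
        _ ≤ (M : ℝ) * max C 0 := by gcongr
        _ ≤ (C0 * N) * max C 0 := by
            have : 0 ≤ max C 0 := le_max_right _ _
            gcongr
        _ = K * N := by rw [hK]; ring
    have h5 : x ^ 2 ≤ K * N / ((l : ℝ) + 1) := by
      rw [le_div_iff₀ hl]
      linarith
    calc x ≤ Real.sqrt (K * N / ((l : ℝ) + 1)) := Real.le_sqrt_of_sq_le h5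
      _ = Real.sqrt (K * N) * (1 / Real.sqrt ((l : ℝ) + 1)) := by
          rw [Real.sqrt_div (by positivity)]
          ring
  have htel : lavg (Clause 3 (n' + 1)) M
      (fun L => ((hit Λ L M : ℕ) : ℝ) - ((hit 0 L M : ℕ) : ℝ)) =
      ∑ l ∈ range Λ, lavg (Clause 3 (n' + 1)) M
        (fun L => ((hit (l + 1) L M : ℕ) : ℝ) - ((hit l L M : ℕ) : ℝ)) := by
    rw [← lavg_sum]
    refine lavg_congr fun L => ?_
    rw [Finset.sum_range_sub (fun l => ((hit l L M : ℕ) : ℝ))]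
  rw [htel]
  calc ∑ l ∈ range Λ, lavg (Clause 3 (n' + 1)) M
        (fun L => ((hit (l + 1) L M : ℕ) : ℝ) - ((hit l L M : ℕ) : ℝ))
      ≤ ∑ l ∈ range Λ, Real.sqrt (K * N) * (1 / Real.sqrt ((l : ℝ) + 1)) :=
        Finset.sum_le_sum fun l _ => hstep l
    _ = Real.sqrt (K * N) * ∑ l ∈ range Λ, 1 / Real.sqrt ((l : ℝ) + 1) := by
        rw [Finset.mul_sum]
    _ ≤ Real.sqrt (K * N) * (2 * Real.sqrt Λ) := by
        gcongr
        exact sum_inv_sqrt Λ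
    _ = 2 * Real.sqrt K * Real.sqrt (N * Λ) := by
        rw [Real.sqrt_mul hK0, Real.sqrt_mul hN0]
        ring

end Crest.Agent.RS
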