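import Mathlib
import Crest.Agent.RH.Nm
import Crest.Agent.RH.Gap
import Crest.Agent.RS.SatProb

/-! Chunk R153H-ABOVE: above the threshold linearly many clauses are violated. -/

set_option autoImplicit false

namespace Crest.Agent.RS

open Finset Crest.ProbabilityR.RandomSAT Filter

/-- `hit` is monotone in the level. -/
theorem above_hit_mono {k n : ℕ} {l l' : ℕ} (h : l ≤ l') (L : List (Clause k n)) (M : ℕ) :
    hit l L M ≤ hit l' L M := by
  classical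
  unfold hit
  apply Finset.card_le_card
  intro m hm
  rw [Finset.mem_filter] at hm ⊢
  obtain ⟨σ, hσ⟩ := hm.2
  exact ⟨hm.1, σ, hσ.trans h⟩

theorem above_hit_eq {k n : ℕ} {l : ℕ} (L : List (Clause k n)) (M : ℕ)
    (h : Alive l (L.map toGC)) : hit l L M = M := by
  classical
  unfold hit
  rw [Finset.filter_true_of_mem, Finset.card_range]
  intro m _
  exact h.of_sublist ((List.take_sublist m L).map toGC)

theorem above_hit_le {k n : ℕ} {l : ℕ} (L : List (Clause k n)) (M m1 : ℕ)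
    (h : ¬ Alive l ((L.take m1).map toGC)) : hit l L M ≤ m1 := by
  classical
  unfold hit
  refine (Finset.card_le_card (t := Finset.range m1) ?_).trans (by rw [Finset.card_range])
  intro m hm
  rw [Finset.mem_filter] at hm
  rw [Finset.mem_range]
  by_contra hlt
  push Not at hlt
  exact h (hm.2.of_sublist ((List.take_sublist_take_left hlt).map toGC))

open Classical in
/-- Markov step. -/
theorem above_markov {n M m1 Λ : ℕ} (hn : 3 ≤ n) (hm : m1 ≤ M) :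
    ((M : ℝ) - m1) * lavg (Clause 3 n) M (fun L => if Alive Λ (L.map toGC) then (1 : ℝ) else 0) ≤
      ((M : ℝ) - m1) * satProb 3 n m1 +
      lavg (Clause 3 n) M (fun L => ((hit Λ L M : ℕ) : ℝ) - ((hit 0 L M : ℕ) : ℝ)) := by
  have hD : (0 : ℝ) ≤ (M : ℝ) - m1 := by
    have : (m1 : ℝ) ≤ M := by exact_mod_cast hm
    linarith
  rw [satProb_eq_take (by omega : 3 ≤ n) hm, ← lavg_mul_left, ← lavg_mul_left, ← lavg_add]
  refine lavg_mono fun L => ?_
  have h0 : ((hit 0 L M : ℕ) : ℝ) ≤ ((hit Λ L M : ℕ) : ℝ) := by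
    exact_mod_cast above_hit_mono (Nat.zero_le _) L M
  by_cases hA : Alive Λ (L.map toGC)
  · rw [if_pos hA, above_hit_eq L M hA]
    by_cases hB : Alive 0 ((L.take m1).map toGC)
    · rw [if_pos hB]
      rw [above_hit_eq L M hA] at h0
      linarith
    · rw [if_neg hB]
      have h1 : ((hit 0 L M : ℕ) : ℝ) ≤ m1 := by exact_mod_cast above_hit_le L M m1 hB
      linarith
  · rw [if_neg hA, mul_zero]
    have h2 : (0 : ℝ) ≤ ((M : ℝ) - m1) * (if Alive 0 ((L.take m1).map toGC) then (1 : ℝ) else 0) := by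
      apply mul_nonneg hD
      split_ifs <;> norm_num
    linarith

open Classical in
theorem above_eN_ge {n M Λ : ℕ} (hn : 3 ≤ n) :
    ((Λ : ℝ) + 1) * (1 - lavg (Clause 3 n) M (fun L => if Alive Λ (L.map toGC) then (1 : ℝ) else 0)) ≤
      eN n M := by
  have hne := nonempty_clause hn
  unfold eN
  rw [← lavg_const (α := Clause 3 n) M (1 : ℝ), ← lavg_sub, ← lavg_mul_left]
  refine lavg_mono fun L => ?_
  by_cases hA : Alive Λ (L.map toGC)
  · rw [if_pos hA, lavg_const]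
    simp
  · rw [if_neg hA, lavg_const, sub_zero, mul_one]
    rw [← Nm_le_iff] at hA
    push Not at hA
    exact_mod_cast hA

/-- Let `α < c1 < c`, `M = ⌊c n⌋`, `Λ = ⌊η n⌋`. If `Nm (F_M) ≤ Λ` then `Alive Λ (F_m)` for all `m < M`, so
`hit Λ L M = M` and either `hit 0 L M > c1 n`(probability `≤ satProb 3 n ⌊c1 n⌋ → 0`: the first `⌊c1 n⌋`
clauses are satisfiable) or `hit Λ - hit 0 ≥ M - c1 n ≥ (c-c1) n - 1` (probability
`≤ C sqrt(n Λ)/((c-c1)n-1)` by `gap_le` and Markov, small for small `η`). So for `n ≥ N1`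
`P(Nm (F_M) > Λ) ≥ 1/2` and `eN n m ≥ eN n M ≥ (1/2) (η n)` (roughly; adjust `η`). -/
theorem above {α : ℝ} (hα : IsSharpThreshold (satProb 3) α) {c : ℝ} (hc : α < c) (hc0 : 0 < c) :
    ∃ (η : ℝ) (N1 : ℕ), 0 < η ∧ ∀ n m : ℕ, N1 ≤ n → c * n ≤ m → η * n ≤ eN n m := by
  classical
  obtain ⟨c1, hc1⟩ : ∃ c1, c1 = max ((α + c) / 2) (c / 2) := ⟨_, rfl⟩
  have h1 : α < c1 := by
    rw [hc1]; exact lt_of_lt_of_le (by linarith) (le_max_left _ _)
  have h2 : c1 < c := by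
    rw [hc1]; exact max_lt (by linarith) (by linarith)
  have h3 : 0 ≤ c1 := by
    rw [hc1]; exact le_trans (by linarith) (le_max_right _ _)
  obtain ⟨δ, hδ⟩ : ∃ δ, δ = c - c1 := ⟨_, rfl⟩
  have hδ0 : 0 < δ := by rw [hδ]; linarith
  obtain ⟨C, hC0, hC⟩ := gap_le c hc0.le
  obtain ⟨η0, hη0⟩ : ∃ η0 : ℝ, η0 = (δ / (8 * (C + 1))) ^ 2 := ⟨_, rfl⟩
  have hη0pos : 0 < η0 := by rw [hη0]; positivity
  have hsqrt : Real.sqrt η0 = δ / (8 * (C + 1)) := by
    rw [hη0, Real.sqrt_sq (by positivity)]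
  have hCs : C * Real.sqrt η0 ≤ δ / 8 := by
    rw [hsqrt, mul_div_assoc', div_le_div_iff₀ (by positivity) (by norm_num)]
    nlinarith
  have ht := (hα c1 h3).2 h1
  have hev := (ht.eventually (gt_mem_nhds (show (0 : ℝ) < 1 / 4 by norm_num)))
  obtain ⟨N0, hN0⟩ := Filter.eventually_atTop.1 hev
  refine ⟨η0 / 2, max N0 (max 3 ⌈2 / δ⌉₊), by positivity, ?_⟩
  intro n m hn hm
  have hnN0 : N0 ≤ n := le_trans (le_max_left _ _) hn
  have hn3 : 3 ≤ n := le_trans (le_trans (le_max_left _ _) (le_max_right _ _)) hn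
  have hnδ : 2 / δ ≤ n :=
    (Nat.le_ceil _).trans (by exact_mod_cast le_trans (le_trans (le_max_right _ _) (le_max_right _ _)) hn)
  have hnpos : (0 : ℝ) < n := by
    have : (3 : ℝ) ≤ n := by exact_mod_cast hn3
    linarith
  have hnδ2 : 2 ≤ δ * n := by
    rw [div_le_iff₀ hδ0] at hnδ; linarith
  obtain ⟨M, hM⟩ : ∃ M : ℕ, M = ⌊c * n⌋₊ := ⟨_, rfl⟩
  obtain ⟨m1, hm1⟩ : ∃ m1 : ℕ, m1 = ⌊c1 * n⌋₊ := ⟨_, rfl⟩
  obtain ⟨Λ, hΛ⟩ : ∃ Λ : ℕ, Λ = ⌊η0 * n⌋₊ := ⟨_, rfl⟩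
  have hMle : (M : ℝ) ≤ c * n := by rw [hM]; exact Nat.floor_le (by positivity)
  have hMge : c * n - 1 < (M : ℝ) := by rw [hM]; exact Nat.sub_one_lt_floor _
  have hm1le : (m1 : ℝ) ≤ c1 * n := by rw [hm1]; exact Nat.floor_le (by positivity)
  have hΛle : (Λ : ℝ) ≤ η0 * n := by rw [hΛ]; exact Nat.floor_le (by positivity)
  have hΛge : η0 * n < (Λ : ℝ) + 1 := by rw [hΛ]; exact Nat.lt_floor_add_one _
  have hm1M : m1 ≤ M := by
    rw [hM, hm1]
    exact Nat.floor_le_floor (mul_le_mul_of_nonneg_right h2.le hnpos.le)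
  have hMm : M ≤ m := by
    have : (M : ℝ) ≤ m := hMle.trans hm
    exact_mod_cast this
  have hD : δ * n / 2 ≤ (M : ℝ) - m1 := by
    have : δ * n = c * n - c1 * n := by rw [hδ]; ring
    linarith
  have hgap := hC n M Λ hn3 hMle
  have hs : Real.sqrt ((n : ℝ) * Λ) ≤ n * Real.sqrt η0 := by
    have e1 : (n : ℝ) * Λ ≤ (n : ℝ) ^ 2 * η0 := by nlinarith
    calc Real.sqrt ((n : ℝ) * Λ) ≤ Real.sqrt ((n : ℝ) ^ 2 * η0) := Real.sqrt_le_sqrt e1
      _ = n * Real.sqrt η0 := by rw [Real.sqrt_mul (by positivity), Real.sqrt_sq hnpos.le]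
  have hCs2 : C * Real.sqrt ((n : ℝ) * Λ) ≤ ((M : ℝ) - m1) / 4 := by
    calc C * Real.sqrt ((n : ℝ) * Λ) ≤ C * (n * Real.sqrt η0) := mul_le_mul_of_nonneg_left hs hC0
      _ = n * (C * Real.sqrt η0) := by ring
      _ ≤ n * (δ / 8) := mul_le_mul_of_nonneg_left hCs hnpos.le
      _ ≤ ((M : ℝ) - m1) / 4 := by linarith
  have hsat : satProb 3 n m1 < 1 / 4 := by rw [hm1]; exact hN0 n hnN0
  have hmk := above_markov (n := n) (M := M) (m1 := m1) (Λ := Λ) hn3 hm1M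
  obtain ⟨P, hP⟩ : ∃ P : ℝ, P = lavg (Clause 3 n) M
    (fun L => if Alive Λ (L.map toGC) then (1 : ℝ) else 0) := ⟨_, rfl⟩
  have hge := above_eN_ge (n := n) (M := M) (Λ := Λ) hn3
  rw [← hP] at hmk hge
  have hDpos : 0 < (M : ℝ) - m1 := by linarith
  have hP2 : P ≤ 1 / 2 := by
    have e1 : ((M : ℝ) - m1) * P ≤ ((M : ℝ) - m1) * (1 / 2) := by
      have e2 : ((M : ℝ) - m1) * satProb 3 n m1 ≤ ((M : ℝ) - m1) * (1 / 4) :=
        mul_le_mul_of_nonneg_left hsat.le hDpos.le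
      linarith
    exact le_of_mul_le_mul_left e1 hDpos
  have hmono := eN_mono hn3 hMm
  have hΛ1 : (0 : ℝ) ≤ (Λ : ℝ) + 1 := by positivity
  have : ((Λ : ℝ) + 1) * (1 / 2) ≤ ((Λ : ℝ) + 1) * (1 - P) :=
    mul_le_mul_of_nonneg_left (by linarith) hΛ1
  linarith

end Crest.Agent.RS
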