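import Mathlib
import Crest.Agent.RH.Nm
import Crest.Agent.RS.SatProb

/-! Chunk R153H-BELOW: below the threshold few clauses are violated. -/

set_option autoImplicit false

namespace Crest.Agent.RS

open Finset Crest.ProbabilityR.RandomSAT Filter

theorem eN_le_sat {n : ℕ} (h : 3 ≤ n) (m : ℕ) : eN n m ≤ m * (1 - satProb 3 n m) := by
  classical
  have := nonempty_clause h
  have h1 : eN n m ≤ lavg (Clause 3 n) m (fun L =>
      (m : ℝ) * (1 - if Alive 0 (L.map toGC) then (1 : ℝ) else 0)) := by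
    refine lavg_mono_length fun L hL => ?_
    by_cases hA : Alive 0 (L.map toGC)
    · rw [if_pos hA]
      have h2 : Nm (L.map toGC) = 0 := Nat.le_zero.1 ((Nm_le_iff _ _).2 hA)
      rw [h2]
      simp
    · rw [if_neg hA]
      have h1 := Nm_le_length (L.map toGC)
      rw [List.length_map, hL] at h1
      have h1' : ((Nm (L.map toGC) : ℕ) : ℝ) ≤ m := by exact_mod_cast h1
      simpa using h1'
  refine h1.trans (le_of_eq ?_)
  rw [lavg_mul_left, lavg_sub, lavg_const, satProb_eq]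

/-- `Nm F ≤ |F| 1(F unsat)`, so `eN n m ≤ m (1 - satProb 3 n m) ≤ c n (1 - satProb 3 n ⌊c n⌋)` for
`m ≤ ⌊c n⌋` (`satProb_eq`, `satProb_eq_take`). -/
theorem below {α : ℝ} (hα : IsSharpThreshold (satProb 3) α) {c : ℝ} (hc : c < α) (hc0 : 0 < c)
    {ε : ℝ} (hε : 0 < ε) :
    ∃ N1 : ℕ, ∀ n m : ℕ, N1 ≤ n → (m : ℝ) ≤ c * n → eN n m ≤ ε * n := by
  have h1 := (hα c hc0.le).1 hc
  rw [Metric.tendsto_atTop] at h1
  obtain ⟨N, hN⟩ := h1 (ε / c) (by positivity)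
  refine ⟨max N 3, fun n m hn hm => ?_⟩
  have hn3 : 3 ≤ n := le_trans (le_max_right _ _) hn
  have h2 := hN n (le_trans (le_max_left _ _) hn)
  rw [Real.dist_eq, abs_lt] at h2
  have hm' : m ≤ ⌊c * n⌋₊ := Nat.le_floor hm
  have hcn : (⌊c * n⌋₊ : ℝ) ≤ c * n := Nat.floor_le (by positivity)
  have h3 : 1 - satProb 3 n ⌊c * n⌋₊ ≤ ε / c := by linarith
  calc eN n m ≤ eN n ⌊c * n⌋₊ := eN_mono hn3 hm'
    _ ≤ (⌊c * n⌋₊ : ℝ) * (1 - satProb 3 n ⌊c * n⌋₊) := eN_le_sat hn3 _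
    _ ≤ (⌊c * n⌋₊ : ℝ) * (ε / c) := by gcongr
    _ ≤ (c * n) * (ε / c) := by gcongr
    _ = ε * n := by field_simp

end Crest.Agent.RS
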