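import Mathlib
import Crest.Agent.RH.Defs
import Crest.Agent.RS.Mix

/-! Chunk R153H-MIXRC: clauses with replacement versus clauses with distinct variables. -/

set_option autoImplicit false

namespace Crest.Agent.RS

open Finset Crest.ProbabilityR.RandomSAT

namespace MixRC

/-- clauses with replacement with a repeated variable -/
abbrev Bad (N : ℕ) : Type := {v : Fin 3 → Fin N // ¬ Function.Injective v} × (Fin 3 → Bool)

open Classical in
/-- classification of a clause with replacement -/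
noncomputable def phi {N : ℕ} (x : RC N) : GC N ⊕ GC N :=
  if Function.Injective x.1 then Sum.inl (rGC x) else Sum.inr (rGC x)

def badGC {N : ℕ} (x : Bad N) : GC N := rGC (x.1.1, x.2)

theorem card_RC (N : ℕ) : Fintype.card (RC N) = N ^ 3 * 2 ^ 3 := by
  simp [RC, Fintype.card_prod]

theorem card_inj (N : ℕ) [Fintype {v : Fin 3 → Fin N // Function.Injective v}] :
    Fintype.card {v : Fin 3 → Fin N // Function.Injective v} = N.descFactorial 3 := by
  have e : {v : Fin 3 → Fin N // Function.Injective v} ≃ (Fin 3 ↪ Fin N) :=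
      Equiv.subtypeInjectiveEquivEmbedding _ _
  rw [Fintype.card_congr e, Fintype.card_embedding_eq, Fintype.card_fin, Fintype.card_fin]

theorem split_sum {N : ℕ} (f : RC N → ℝ) :
    ∑ x, f x = (∑ a : Clause 3 N, f (a.1.1, a.2)) + ∑ b : Bad N, f (b.1.1, b.2) := by
  classical
  rw [Fintype.sum_prod_type, Fintype.sum_prod_type, Fintype.sum_prod_type]
  exact (Fintype.sum_subtype_add_sum_subtype (fun v : Fin 3 → Fin N => Function.Injective v)
    (fun v => ∑ e, f (v, e))).symm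

/-- fraction of bad clauses -/
noncomputable def qq (N : ℕ) : ℝ := (Fintype.card (Bad N) : ℝ) / (Fintype.card (RC N) : ℝ)

theorem card_add (N : ℕ) : (Fintype.card (Clause 3 N) : ℝ) + (Fintype.card (Bad N) : ℝ) =
    (Fintype.card (RC N) : ℝ) := by
  have := split_sum (N := N) (fun _ => (1 : ℝ))
  simpa [Finset.sum_const, Finset.card_univ] using this.symm

theorem qq_nonneg (N : ℕ) : 0 ≤ qq N := by unfold qq; positivity

theorem card_RC_pos {N : ℕ} (hN : 3 ≤ N) : (0 : ℝ) < (Fintype.card (RC N) : ℝ) := by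
  rw [card_RC]
  have : (0 : ℝ) < N := by exact_mod_cast (by omega : 0 < N)
  push_cast
  positivity

theorem qq_le_one {N : ℕ} (hN : 3 ≤ N) : qq N ≤ 1 := by
  unfold qq
  rw [div_le_one (card_RC_pos hN), ← card_add]
  have : (0 : ℝ) ≤ (Fintype.card (Clause 3 N) : ℝ) := by positivity
  linarith

theorem qq_le {N : ℕ} (hN : 3 ≤ N) : qq N ≤ 3 / N := by
  unfold qq
  have hc := card_add N
  have h1 : (Fintype.card (Clause 3 N) : ℝ) = (N : ℝ) * (N - 1) * (N - 2) * 8 := by
    rw [card_clause]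
    obtain ⟨m, rfl⟩ : ∃ m, N = m + 3 := ⟨N - 3, by omega⟩
    simp only [Nat.descFactorial]
    push_cast [show m + 3 - 2 = m + 1 by omega, show m + 3 - 1 = m + 2 by omega,
      show m + 3 - 0 = m + 3 by omega]
    ring
  have h2 : (Fintype.card (RC N) : ℝ) = (N : ℝ) ^ 3 * 8 := by
    rw [card_RC]; push_cast; norm_num
  have hN0 : (0 : ℝ) < N := by exact_mod_cast (by omega : 0 < N)
  have h3 : (Fintype.card (Bad N) : ℝ) = (N : ℝ) ^ 3 * 8 - (N : ℝ) * (N - 1) * (N - 2) * 8 := by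
    rw [h1, h2] at hc; linarith
  rw [h3, h2, div_le_div_iff₀ (by positivity) hN0]
  nlinarith [sq_nonneg (N : ℝ), hN0]

theorem nonempty_bad {N : ℕ} (hN : 3 ≤ N) : Nonempty (Bad N) := by
  refine ⟨⟨⟨fun _ => ⟨0, by omega⟩, fun h => ?_⟩, fun _ => true⟩⟩
  have := @h 0 1 rfl
  exact absurd this (by decide)

theorem mix_H {N : ℕ} (hN : 3 ≤ N) (h : GC N ⊕ GC N → ℝ) :
    avg (fun c : RC N => h (phi c)) =
      (1 - qq N) * avg (fun a : Clause 3 N => h (Sum.inl (toGC a))) +
        qq N * avg (fun b : Bad N => h (Sum.inr (badGC b))) := by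
  have hpos := card_RC_pos hN
  have hA : (0 : ℝ) < (Fintype.card (Clause 3 N) : ℝ) := by
    have := nonempty_clause (k := 3) (n := N) hN
    exact_mod_cast Fintype.card_pos
  have hB : (0 : ℝ) < (Fintype.card (Bad N) : ℝ) := by
    have := nonempty_bad hN
    exact_mod_cast Fintype.card_pos
  have h1 : (1 - qq N) = (Fintype.card (Clause 3 N) : ℝ) / (Fintype.card (RC N) : ℝ) := by
    unfold qq
    rw [eq_div_iff hpos.ne', sub_mul, div_mul_cancel₀ _ hpos.ne', one_mul]
    linarith [card_add N]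
  rw [h1]
  unfold qq avg
  rw [split_sum]
  have e1 : ∀ a : Clause 3 N, h (phi ((a.1.1, a.2) : RC N)) = h (Sum.inl (toGC a)) := by
    intro a
    unfold phi
    rw [if_pos a.1.2]
    rfl
  have e2 : ∀ b : Bad N, h (phi ((b.1.1, b.2) : RC N)) = h (Sum.inr (badGC b)) := by
    intro b
    unfold phi
    rw [if_neg b.1.2]
    rfl
  rw [Finset.sum_congr rfl (fun a _ => e1 a), Finset.sum_congr rfl (fun b _ => e2 b)]
  field_simp

theorem perm_split {N : ℕ} (L : List (RC N)) :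
    (L.map rGC).Perm (lefts (L.map phi) ++ rights (L.map phi)) := by
  induction L with
  | nil => simp [lefts, rights]
  | cons x L ih =>
    by_cases hx : Function.Injective x.1
    · have h1 : lefts ((x :: L).map phi) = rGC x :: lefts (L.map phi) := by
        simp [lefts, phi, hx]
      have h2 : rights ((x :: L).map phi) = rights (L.map phi) := by
        simp [rights, phi, hx]
      rw [h1, h2, List.map_cons, List.cons_append]
      exact ih.cons _
    · have h1 : lefts ((x :: L).map phi) = lefts (L.map phi) := by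
        simp [lefts, phi, hx]
      have h2 : rights ((x :: L).map phi) = rGC x :: rights (L.map phi) := by
        simp [rights, phi, hx]
      rw [h1, h2, List.map_cons]
      exact (ih.cons _).trans List.perm_middle.symm

theorem main_eq {N : ℕ} (hN : 3 ≤ N) (M : ℕ) :
    lavg (RC N) M (fun L => ((Nm (L.map rGC) : ℕ) : ℝ)) =
      ∑ ν ∈ range (M + 1), (M.choose ν : ℝ) * qq N ^ ν * (1 - qq N) ^ (M - ν) *
        lavg (Clause 3 N) (M - ν) (fun L => lavg (Bad N) ν (fun L' =>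
          ((Nm (L.map toGC ++ L'.map badGC) : ℕ) : ℝ))) := by
  rw [← lavg_mix (γ := RC N) (α := Clause 3 N) (β := Bad N) phi toGC badGC (qq N)
    (mix_H hN) M (fun A B => ((Nm (A ++ B) : ℕ) : ℝ))]
  refine lavg_congr fun L => ?_
  rw [Nm_perm (perm_split L)]

theorem binom_mean (q : ℝ) (M : ℕ) :
    ∑ ν ∈ range (M + 1), (M.choose ν : ℝ) * q ^ ν * (1 - q) ^ (M - ν) * ν = M * q := by
  cases M with
  | zero => simp
  | succ M =>
    rw [Finset.sum_range_succ']
    simp only [Nat.cast_zero, mul_zero, add_zero]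
    have h1 : ∀ ν ∈ range (M + 1), (((M + 1).choose (ν + 1) : ℕ) : ℝ) * q ^ (ν + 1) *
        (1 - q) ^ (M + 1 - (ν + 1)) * ((ν + 1 : ℕ) : ℝ) =
        ((M + 1 : ℕ) : ℝ) * q * (q ^ ν * (1 - q) ^ (M - ν) * (M.choose ν : ℝ)) := by
      intro ν _
      have := Nat.add_one_mul_choose_eq M ν
      have h2 : ((M + 1 : ℕ) : ℝ) * (M.choose ν : ℝ) =
          (((M + 1).choose (ν + 1) : ℕ) : ℝ) * ((ν + 1 : ℕ) : ℝ) := by exact_mod_cast this
      rw [show M + 1 - (ν + 1) = M - ν by omega]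
      calc _ = ((((M + 1).choose (ν + 1) : ℕ) : ℝ) * ((ν + 1 : ℕ) : ℝ)) * (q ^ (ν + 1) *
          (1 - q) ^ (M - ν)) := by ring
        _ = _ := by rw [← h2, pow_succ]; ring
    rw [Finset.sum_congr rfl h1, ← Finset.mul_sum, ← add_pow]
    simp

theorem binom_one (q : ℝ) (M : ℕ) :
    ∑ ν ∈ range (M + 1), (M.choose ν : ℝ) * q ^ ν * (1 - q) ^ (M - ν) = 1 := by
  have := add_pow q (1 - q) M
  rw [add_sub_cancel, one_pow] at this
  refine Eq.trans ?_ this.symm
  exact Finset.sum_congr rfl fun ν _ => by ring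

end MixRC

open MixRC

/-- `lavg_mix` with `γ = RC N`, `φ x = inl (rGC x)` if `x.1` is injective (law: `toGC` of a uniform clause) and
`inr (rGC x)` otherwise, `α = Clause 3 N`, `β = {x : RC N // ¬ Injective x.1}` (nonempty for `N ≥ 1`, as
`N ≥ 3`), `q = 1 - (N-1)(N-2)/N^2 ≤ 3/N`; `Nm (A) ≤ Nm (L.map rGC) ≤ Nm A + |B|` for the left part `A` and
right part `B`. -/
theorem lavg_rc {N : ℕ} (hN : 3 ≤ N) (M : ℕ) : ∃ q : ℝ, 0 ≤ q ∧ q ≤ 1 ∧ q ≤ 3 / N ∧
    (∑ ν ∈ range (M + 1), (M.choose ν : ℝ) * q ^ ν * (1 - q) ^ (M - ν) * eN N (M - ν) ≤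
      lavg (RC N) M (fun L => ((Nm (L.map rGC) : ℕ) : ℝ))) ∧
    (lavg (RC N) M (fun L => ((Nm (L.map rGC) : ℕ) : ℝ)) ≤
      ∑ ν ∈ range (M + 1), (M.choose ν : ℝ) * q ^ ν * (1 - q) ^ (M - ν) * (eN N (M - ν) + ν)) := by
  have := nonempty_clause (k := 3) (n := N) hN
  have := nonempty_bad hN
  refine ⟨qq N, qq_nonneg N, qq_le_one hN, qq_le hN, ?_, ?_⟩
  · rw [main_eq hN]
    refine Finset.sum_le_sum fun ν _ => ?_
    have h0 : 0 ≤ (M.choose ν : ℝ) * qq N ^ ν * (1 - qq N) ^ (M - ν) :=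
      mul_nonneg (mul_nonneg (Nat.cast_nonneg _) (pow_nonneg (qq_nonneg N) _))
        (pow_nonneg (by linarith [qq_le_one hN]) _)
    refine mul_le_mul_of_nonneg_left ?_ h0
    refine lavg_mono fun L => const_le_lavg fun L' _ => ?_
    exact_mod_cast Nm_mono (List.sublist_append_left _ _)
  · rw [main_eq hN]
    refine Finset.sum_le_sum fun ν _ => ?_
    have h0 : 0 ≤ (M.choose ν : ℝ) * qq N ^ ν * (1 - qq N) ^ (M - ν) :=
      mul_nonneg (mul_nonneg (Nat.cast_nonneg _) (pow_nonneg (qq_nonneg N) _))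
        (pow_nonneg (by linarith [qq_le_one hN]) _)
    refine mul_le_mul_of_nonneg_left ?_ h0
    calc _ ≤ lavg (Clause 3 N) (M - ν) (fun L => ((Nm (L.map toGC) : ℕ) : ℝ) + ν) := by
          refine lavg_mono fun L => lavg_le_const fun L' hL' => ?_
          have := Nm_append_le (L.map toGC) (L'.map badGC)
          rw [List.length_map, hL'] at this
          exact_mod_cast this
      _ = eN N (M - ν) + ν := by rw [lavg_add, lavg_const]; rfl

/-- Consequences (binomial mean `Σ Bin(ν) ν = M q ≤ 3M/N`, monotonicity of `eN`):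
`lavg ≤ eN N M + 3 M / N`; and for every `a`: `lavg ≥ eN N a (1 - (3M/N)/(M-a))` if `a < M` (Markov: if
`ν ≤ M - a` then `eN N (M-ν) ≥ eN N a`). -/
theorem lavg_rc_le {N : ℕ} (hN : 3 ≤ N) (M : ℕ) :
    lavg (RC N) M (fun L => ((Nm (L.map rGC) : ℕ) : ℝ)) ≤ eN N M + 3 * M / N := by
  obtain ⟨q, hq0, hq1, hq3, -, h2⟩ := lavg_rc hN M
  refine h2.trans ?_
  have h3 : ∀ ν ∈ range (M + 1), (M.choose ν : ℝ) * q ^ ν * (1 - q) ^ (M - ν) *
      (eN N (M - ν) + ν) ≤ (M.choose ν : ℝ) * q ^ ν * (1 - q) ^ (M - ν) * eN N M +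
        (M.choose ν : ℝ) * q ^ ν * (1 - q) ^ (M - ν) * ν := by
    intro ν _
    have h0 : 0 ≤ (M.choose ν : ℝ) * q ^ ν * (1 - q) ^ (M - ν) :=
      mul_nonneg (mul_nonneg (Nat.cast_nonneg _) (pow_nonneg hq0 _))
        (pow_nonneg (by linarith) _)
    rw [← mul_add]
    refine mul_le_mul_of_nonneg_left ?_ h0
    have := eN_mono (n := N) hN (Nat.sub_le M ν)
    linarith
  refine (Finset.sum_le_sum h3).trans ?_
  rw [Finset.sum_add_distrib, ← Finset.sum_mul, binom_one, binom_mean, one_mul]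
  have hM : (0 : ℝ) ≤ M := Nat.cast_nonneg _
  have : (M : ℝ) * q ≤ 3 * M / N := by
    calc (M : ℝ) * q ≤ M * (3 / N) := mul_le_mul_of_nonneg_left hq3 hM
      _ = _ := by ring
  linarith

theorem lavg_rc_ge {N : ℕ} (hN : 3 ≤ N) (M a : ℕ) (ha : a < M) :
    eN N a * (1 - (3 * M / N) / ((M : ℝ) - a)) ≤ lavg (RC N) M (fun L => ((Nm (L.map rGC) : ℕ) : ℝ)) := by
  obtain ⟨q, hq0, hq1, hq3, h1, -⟩ := lavg_rc hN M
  refine le_trans ?_ h1
  have hd : (0 : ℝ) < (M : ℝ) - a := by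
    have : (a : ℝ) < M := by exact_mod_cast ha
    linarith
  have he : 0 ≤ eN N a := eN_nonneg N a
  have h3 : ∀ ν ∈ range (M + 1), (M.choose ν : ℝ) * q ^ ν * (1 - q) ^ (M - ν) * eN N a -
      (M.choose ν : ℝ) * q ^ ν * (1 - q) ^ (M - ν) * ν * (eN N a / ((M : ℝ) - a)) ≤
      (M.choose ν : ℝ) * q ^ ν * (1 - q) ^ (M - ν) * eN N (M - ν) := by
    intro ν hν
    have hνM : ν ≤ M := by
      have := Finset.mem_range.1 hν
      omega
    have h0 : 0 ≤ (M.choose ν : ℝ) * q ^ ν * (1 - q) ^ (M - ν) :=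
      mul_nonneg (mul_nonneg (Nat.cast_nonneg _) (pow_nonneg hq0 _))
        (pow_nonneg (by linarith) _)
    rw [mul_assoc (((M.choose ν : ℝ) * q ^ ν * (1 - q) ^ (M - ν))), ← mul_sub]
    refine mul_le_mul_of_nonneg_left ?_ h0
    have hν0 : (0 : ℝ) ≤ ν := Nat.cast_nonneg _
    by_cases hle : ν ≤ M - a
    · have := eN_mono (n := N) hN (show a ≤ M - ν by omega)
      have h5 : 0 ≤ (ν : ℝ) * (eN N a / ((M : ℝ) - a)) := by positivity
      linarith
    · have h4 : (M : ℝ) - a ≤ ν := by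
        have : M ≤ ν + a := by omega
        have : (M : ℝ) ≤ ν + a := by exact_mod_cast this
        linarith
      have h5 : eN N a ≤ (ν : ℝ) * (eN N a / ((M : ℝ) - a)) := by
        rw [mul_div_assoc', le_div_iff₀ hd, mul_comm (ν : ℝ)]
        exact mul_le_mul_of_nonneg_left h4 he
      linarith [eN_nonneg N (M - ν)]
  refine le_trans ?_ (Finset.sum_le_sum h3)
  rw [Finset.sum_sub_distrib, ← Finset.sum_mul, ← Finset.sum_mul, binom_one, binom_mean, one_mul]
  have hM : (0 : ℝ) ≤ M := Nat.cast_nonneg _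
  have h6 : (M : ℝ) * q ≤ 3 * M / N := by
    calc (M : ℝ) * q ≤ M * (3 / N) := mul_le_mul_of_nonneg_left hq3 hM
      _ = _ := by ring
  have h7 : (M : ℝ) * q * (eN N a / ((M : ℝ) - a)) ≤ (3 * M / N) * (eN N a / ((M : ℝ) - a)) :=
    mul_le_mul_of_nonneg_right h6 (by positivity)
  have h8 : eN N a * (1 - (3 * M / N) / ((M : ℝ) - a)) =
      eN N a - (3 * M / N) * (eN N a / ((M : ℝ) - a)) := by ring
  rw [h8]
  linarith

end Crest.Agent.RS
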