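import Mathlib
import Crest.Prelude.Def_DilutedSpinGlass

/-! Chunk R153H-POIS: moments of the Poisson weights. -/

set_option autoImplicit false

namespace Crest.Agent.RS

open Crest.ProbabilityR.Diluted

theorem pw_nonneg {lam : ℝ} (h : 0 ≤ lam) (M : ℕ) : 0 ≤ poissonWeight lam M := by
  unfold poissonWeight
  positivity

private theorem pw_hasSum0 (lam : ℝ) : HasSum (poissonWeight lam) 1 := by
  have h := (NormedSpace.expSeries_div_hasSum_exp lam).mul_left (Real.exp (-lam))
  rw [← Real.exp_eq_exp_ℝ, ← Real.exp_add, neg_add_cancel, Real.exp_zero] at h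
  have h2 : poissonWeight lam = fun n => Real.exp (-lam) * (lam ^ n / (n.factorial : ℝ)) := by
    funext n
    unfold poissonWeight
    ring
  rw [h2]
  exact h

private theorem pw_shift (lam : ℝ) (n : ℕ) :
    poissonWeight lam (n + 1) * ((n + 1 : ℕ) : ℝ) = lam * poissonWeight lam n := by
  unfold poissonWeight
  rw [Nat.factorial_succ]
  have : ((n.factorial : ℕ) : ℝ) ≠ 0 := by exact_mod_cast (Nat.factorial_pos n).ne'
  push_cast
  have h3 : ((n : ℝ) + 1) ≠ 0 := by positivity
  field_simp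
  ring

private theorem pw_hasSum1 (lam : ℝ) :
    HasSum (fun n : ℕ => poissonWeight lam n * (n : ℝ)) lam := by
  have h1 := (pw_hasSum0 lam).mul_left lam
  rw [mul_one] at h1
  have h2 : (fun n : ℕ => lam * poissonWeight lam n) =
      fun n : ℕ => poissonWeight lam (n + 1) * ((n + 1 : ℕ) : ℝ) := by
    funext n
    exact (pw_shift lam n).symm
  rw [h2] at h1
  rw [← hasSum_nat_add_iff' (f := fun n : ℕ => poissonWeight lam n * (n : ℝ)) 1]
  simpa using h1

private theorem pw_hasSum2 (lam : ℝ) :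
    HasSum (fun n : ℕ => poissonWeight lam n * (n : ℝ) * ((n : ℝ) - 1)) (lam ^ 2) := by
  have h1 := (pw_hasSum1 lam).mul_left lam
  have h2 : (fun n : ℕ => lam * (poissonWeight lam n * (n : ℝ))) =
      fun n : ℕ => poissonWeight lam (n + 1) * ((n + 1 : ℕ) : ℝ) * (((n + 1 : ℕ) : ℝ) - 1) := by
    funext n
    rw [pw_shift]
    push_cast
    ring
  rw [h2] at h1
  rw [← hasSum_nat_add_iff'
    (f := fun n : ℕ => poissonWeight lam n * (n : ℝ) * ((n : ℝ) - 1)) 1]
  have e : lam ^ 2 - ∑ i ∈ Finset.range 1, poissonWeight lam i * (i : ℝ) * ((i : ℝ) - 1) =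
      lam * lam := by
    simp [sq]
  rw [e]
  exact h1

theorem pw_summable {lam : ℝ} (h : 0 ≤ lam) : Summable (poissonWeight lam) :=
  (pw_hasSum0 lam).summable

theorem pw_sum {lam : ℝ} (h : 0 ≤ lam) : ∑' M, poissonWeight lam M = 1 :=
  (pw_hasSum0 lam).tsum_eq

theorem pw_mean {lam : ℝ} (h : 0 ≤ lam) : Summable (fun M => poissonWeight lam M * (M : ℝ)) ∧
    ∑' M, poissonWeight lam M * (M : ℝ) = lam :=
  ⟨(pw_hasSum1 lam).summable, (pw_hasSum1 lam).tsum_eq⟩

theorem pw_var {lam : ℝ} (h : 0 ≤ lam) : Summable (fun M => poissonWeight lam M * (M : ℝ) ^ 2) ∧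
    Summable (fun M => poissonWeight lam M * ((M : ℝ) - lam) ^ 2) ∧
    ∑' M, poissonWeight lam M * ((M : ℝ) - lam) ^ 2 = lam := by
  have hA : HasSum (fun M : ℕ => poissonWeight lam M * (M : ℝ) ^ 2) (lam ^ 2 + lam) := by
    have h1 := (pw_hasSum2 lam).add (pw_hasSum1 lam)
    have e : (fun n : ℕ => poissonWeight lam n * (n : ℝ) * ((n : ℝ) - 1) +
        poissonWeight lam n * (n : ℝ)) = fun M : ℕ => poissonWeight lam M * (M : ℝ) ^ 2 := by
      funext n
      ring
    rw [e] at h1
    exact h1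
  have hB : HasSum (fun M : ℕ => poissonWeight lam M * ((M : ℝ) - lam) ^ 2) lam := by
    have h1 := (hA.sub ((pw_hasSum1 lam).mul_left (2 * lam))).add
      ((pw_hasSum0 lam).mul_left (lam ^ 2))
    have e : (fun n : ℕ => poissonWeight lam n * (n : ℝ) ^ 2 -
        2 * lam * (poissonWeight lam n * (n : ℝ)) + lam ^ 2 * poissonWeight lam n) =
        fun M : ℕ => poissonWeight lam M * ((M : ℝ) - lam) ^ 2 := by
      funext n
      ring
    rw [e] at h1
    have e2 : lam ^ 2 + lam - 2 * lam * lam + lam ^ 2 * 1 = lam := by ring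
    rw [e2] at h1
    exact h1
  exact ⟨hA.summable, hB.summable, hB.tsum_eq⟩

end Crest.Agent.RS
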