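import Mathlib
import Crest.Agent.RH.Defs
import Crest.Agent.RH.MixRC
import Crest.Agent.RH.Pois
import Crest.Agent.RH.Above
import Crest.Agent.RH.Below

/-! Chunk R153H-EN: `EN c N` is linear above and sublinear below the threshold. -/

set_option autoImplicit false

namespace Crest.Agent.RS

open Finset Crest.ProbabilityR.RandomSAT Crest.ProbabilityR.Diluted Filter

theorem lavg_rc_nonneg (N M : ℕ) : 0 ≤ lavg (RC N) M (fun L => ((Nm (L.map rGC) : ℕ) : ℝ)) :=
  lavg_nonneg fun _ => Nat.cast_nonneg _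

theorem lavg_rc_le_card {N : ℕ} (hN : 1 ≤ N) (M : ℕ) :
    lavg (RC N) M (fun L => ((Nm (L.map rGC) : ℕ) : ℝ)) ≤ M := by
  have : Nonempty (RC N) := ⟨(fun _ => ⟨0, hN⟩, fun _ => true)⟩
  refine lavg_le_const fun L hL => ?_
  have h1 := Nm_le_length (L.map rGC)
  rw [List.length_map, hL] at h1
  exact_mod_cast h1

/-- the series `EN` converges (`lavg ≤ M`) -/
theorem EN_summable {c : ℝ} (hc : 0 ≤ c) {N : ℕ} (hN : 1 ≤ N) : Summable (fun M : ℕ =>
    poissonWeight (c * N) M * lavg (RC N) M (fun L => ((Nm (L.map rGC) : ℕ) : ℝ))) := by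
  have hl : 0 ≤ c * N := by positivity
  refine Summable.of_nonneg_of_le (fun M => mul_nonneg (pw_nonneg hl M) (lavg_rc_nonneg N M))
    (fun M => ?_) (pw_mean hl).1
  exact mul_le_mul_of_nonneg_left (lavg_rc_le_card hN M) (pw_nonneg hl M)

/-- Poisson average of `A + B M + D (M - λ)^2`. -/
theorem pw_quad {lam : ℝ} (h : 0 ≤ lam) (A B D : ℝ) :
    Summable (fun M : ℕ => poissonWeight lam M * (A + B * M + D * ((M : ℝ) - lam) ^ 2)) ∧
    ∑' M : ℕ, poissonWeight lam M * (A + B * M + D * ((M : ℝ) - lam) ^ 2) =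
      A + B * lam + D * lam := by
  have h0 := pw_summable h
  have h1 := pw_sum h
  obtain ⟨h2, h3⟩ := pw_mean h
  obtain ⟨-, h4, h5⟩ := pw_var h
  have e : (fun M : ℕ => poissonWeight lam M * (A + B * M + D * ((M : ℝ) - lam) ^ 2)) =
      fun M : ℕ => (A * poissonWeight lam M + B * (poissonWeight lam M * M)) +
        D * (poissonWeight lam M * ((M : ℝ) - lam) ^ 2) := by
    funext M
    ring
  have s1 := h0.mul_left A
  have s2 := h2.mul_left B
  have s3 := h4.mul_left D
  rw [e]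
  refine ⟨(s1.add s2).add s3, ?_⟩
  rw [(s1.add s2).tsum_add s3, s1.tsum_add s2, tsum_mul_left, tsum_mul_left, tsum_mul_left,
    h1, h3, h5, mul_one]

set_option maxHeartbeats 1000000 in
/-- Let `α < c2 < c1 < c`, `a = ⌈c2 N⌉`. For `c1 N ≤ M ≤ 2 c N` and `N` large: `lavg_rc_ge` gives
`lavg ≥ eN N a (1 - (6c)/((c1-c2)N-1)) ≥ (1/2) η N` (`above` with `c2`). `P(Poisson(cN) ∈ [c1 N, 2cN]) ≥ 1/2` for
large `N` by Chebyshev (`pw_var`). So `EN ≥ (1/4) η N`. -/
theorem EN_above {α : ℝ} (hα : IsSharpThreshold (satProb 3) α) {c : ℝ} (hc : α < c) (hc0 : 0 < c) :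
    ∃ (η : ℝ) (N1 : ℕ), 0 < η ∧ ∀ N : ℕ, N1 ≤ N → η * N ≤ EN c N := by
  set a0 := max α 0 with ha0
  have ha0c : a0 < c := max_lt hc hc0
  have ha0n : 0 ≤ a0 := le_max_right _ _
  have hαa0 : α ≤ a0 := le_max_left _ _
  set g := (c - a0) / 3 with hg
  have hgpos : 0 < g := by rw [hg]; linarith
  set c2 := a0 + g with hc2
  set c1 := a0 + 2 * g with hc1
  have hc1c : c - c1 = g := by rw [hc1, hg]; ring
  have hc2pos : 0 < c2 := by rw [hc2]; linarith
  obtain ⟨η, N1, hη, hN1⟩ := above hα (c := c2) (by rw [hc2]; linarith) hc2pos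
  obtain ⟨N2, hN2⟩ := exists_nat_gt ((12 * c + 1) / g)
  obtain ⟨N3, hN3⟩ := exists_nat_gt (2 * c / g ^ 2)
  refine ⟨η / 4, max (max N1 N2) (max N3 3), by positivity, fun N hN => ?_⟩
  have hNN1 : N1 ≤ N := le_trans (le_trans (le_max_left _ _) (le_max_left _ _)) hN
  have hNN2 : N2 ≤ N := le_trans (le_trans (le_max_right _ _) (le_max_left _ _)) hN
  have hNN3 : N3 ≤ N := le_trans (le_trans (le_max_left _ _) (le_max_right _ _)) hN
  have hN3' : 3 ≤ N := le_trans (le_trans (le_max_right _ _) (le_max_right _ _)) hN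
  have hNpos : (0 : ℝ) < N := by
    have : 0 < N := by omega
    exact_mod_cast this
  have hgN : 12 * c + 1 ≤ g * N := by
    have h1 : (12 * c + 1) / g < N := lt_of_lt_of_le hN2 (by exact_mod_cast hNN2)
    rw [div_lt_iff₀ hgpos] at h1
    linarith
  have hg2N : 2 * c ≤ g ^ 2 * N := by
    have h1 : 2 * c / g ^ 2 < N := lt_of_lt_of_le hN3 (by exact_mod_cast hNN3)
    rw [div_lt_iff₀ (by positivity)] at h1
    linarith
  set a := ⌈c2 * N⌉₊ with ha
  have ha1 : c2 * N ≤ a := Nat.le_ceil _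
  have ha2 : (a : ℝ) < c2 * N + 1 := Nat.ceil_lt_add_one (by positivity)
  have hea : η * N ≤ eN N a := hN1 N a hNN1 ha1
  have hl : 0 ≤ c * N := by positivity
  -- pointwise bound
  have hpt : ∀ M : ℕ, (η * N / 2) + 0 * (M : ℝ) +
      (-(η * N / 2) / (g * N) ^ 2) * ((M : ℝ) - c * N) ^ 2 ≤
      lavg (RC N) M (fun L => ((Nm (L.map rGC) : ℕ) : ℝ)) := by
    intro M
    by_cases hM : |(M : ℝ) - c * N| < g * N
    · rw [abs_lt] at hM
      have hMlow : c1 * N < M := by
        have : c1 = c - g := by linarith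
        rw [this]; linarith [hM.1]
      have hMup : (M : ℝ) ≤ 2 * c * N := by
        have : g ≤ c := by rw [hg]; linarith
        have : g * N ≤ c * N := by gcongr
        linarith [hM.2]
      have hMa : 12 * c ≤ (M : ℝ) - a := by
        have : c1 * N - c2 * N = g * N := by rw [hc1, hc2]; ring
        linarith
      have haM : a < M := by
        have : (a : ℝ) < M := by linarith
        exact_mod_cast this
      have h1 := lavg_rc_ge hN3' M a haM
      have h2 : (3 * (M : ℝ) / N) / ((M : ℝ) - a) ≤ 1 / 2 := by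
        have h3 : 3 * (M : ℝ) / N ≤ 6 * c := by
          rw [div_le_iff₀ hNpos]; linarith
        rw [div_le_iff₀ (by linarith)]
        linarith
      have h4 : η * N / 2 ≤ lavg (RC N) M (fun L => ((Nm (L.map rGC) : ℕ) : ℝ)) := by
        refine le_trans ?_ h1
        have h5 : (0 : ℝ) ≤ η * N := by positivity
        nlinarith
      have h6 : 0 ≤ (η * N / 2) / (g * N) ^ 2 * ((M : ℝ) - c * N) ^ 2 := by positivity
      have h7 : (-(η * N / 2) / (g * N) ^ 2) * ((M : ℝ) - c * N) ^ 2 =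
          -((η * N / 2) / (g * N) ^ 2 * ((M : ℝ) - c * N) ^ 2) := by ring
      rw [h7]
      linarith
    · push Not at hM
      have h8 : (g * N) ^ 2 ≤ ((M : ℝ) - c * N) ^ 2 := by
        rw [← sq_abs ((M : ℝ) - c * N)]
        gcongr
      have h9 : 1 ≤ ((M : ℝ) - c * N) ^ 2 / (g * N) ^ 2 := by
        rw [le_div_iff₀ (by positivity)]; linarith
      have h10 : (η * N / 2) + 0 * (M : ℝ) +
          (-(η * N / 2) / (g * N) ^ 2) * ((M : ℝ) - c * N) ^ 2 =
          (η * N / 2) * (1 - ((M : ℝ) - c * N) ^ 2 / (g * N) ^ 2) := by ring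
      rw [h10]
      refine le_trans ?_ (lavg_rc_nonneg N M)
      exact mul_nonpos_of_nonneg_of_nonpos (by positivity) (by linarith)
  obtain ⟨hs, hq⟩ := pw_quad hl (η * N / 2) 0 (-(η * N / 2) / (g * N) ^ 2)
  have hle : η * N / 2 + 0 * (c * N) + (-(η * N / 2) / (g * N) ^ 2) * (c * N) ≤ EN c N := by
    rw [← hq]
    refine Summable.tsum_le_tsum (fun M => ?_) hs (EN_summable hc0.le (by omega))
    exact mul_le_mul_of_nonneg_left (hpt M) (pw_nonneg hl M)
  refine le_trans ?_ hle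
  have h11 : (-(η * N / 2) / (g * N) ^ 2) * (c * N) = -(η * N / 2) * (c / (g ^ 2 * N)) := by
    field_simp
  rw [h11]
  have h12 : c / (g ^ 2 * N) ≤ 1 / 2 := by
    rw [div_le_iff₀ (by positivity)]; linarith
  have h13 : 0 ≤ η * N / 2 := by positivity
  nlinarith

set_option maxHeartbeats 1000000 in
/-- Let `c < c1 < α`. `EN ≤ Σ_M w_M (eN N M + 3M/N)`; `Σ w_M 3M/N = 3c`; for `M ≤ c1 N`, `eN N M ≤ (ε/2) N`
(`below`); for `M > c1 N`: `eN N M ≤ M ≤ (c1/(c1-c)) (M - cN) ≤ (c1/(c1-c)) (M-cN)^2/((c1-c)N)` and `pw_var`: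
total `≤ (ε/2) N + 3c + c1 c/(c1-c)^2 ≤ ε N` for `N` large. -/
theorem EN_below {α : ℝ} (hα : IsSharpThreshold (satProb 3) α) {c : ℝ} (hc : c < α) (hc0 : 0 < c)
    {ε : ℝ} (hε : 0 < ε) : ∃ N1 : ℕ, ∀ N : ℕ, N1 ≤ N → EN c N ≤ ε * N := by
  set g := (α - c) / 2 with hg
  have hgpos : 0 < g := by rw [hg]; linarith
  obtain ⟨N1, hN1⟩ := below hα (c := c + g) (by rw [hg]; linarith) (by linarith) (half_pos hε)
  obtain ⟨N2, hN2⟩ := exists_nat_gt ((3 * c + (c + g) / g ^ 2 * c) / (ε / 2))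
  refine ⟨max N1 (max N2 3), fun N hN => ?_⟩
  have hNN1 : N1 ≤ N := le_trans (le_max_left _ _) hN
  have hNN2 : N2 ≤ N := le_trans (le_trans (le_max_left _ _) (le_max_right _ _)) hN
  have hN3' : 3 ≤ N := le_trans (le_trans (le_max_right _ _) (le_max_right _ _)) hN
  have hNpos : (0 : ℝ) < N := by
    have : 0 < N := by omega
    exact_mod_cast this
  have hl : 0 ≤ c * N := by positivity
  have hpt : ∀ M : ℕ, lavg (RC N) M (fun L => ((Nm (L.map rGC) : ℕ) : ℝ)) ≤
      (ε / 2 * N) + (3 / N) * (M : ℝ) + ((c + g) / g ^ 2 / N) * ((M : ℝ) - c * N) ^ 2 := by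
    intro M
    have h1 := lavg_rc_le hN3' M
    have h2 : eN N M ≤ ε / 2 * N + ((c + g) / g ^ 2 / N) * ((M : ℝ) - c * N) ^ 2 := by
      by_cases hM : (M : ℝ) ≤ (c + g) * N
      · have := hN1 N M hNN1 hM
        have h3 : 0 ≤ ((c + g) / g ^ 2 / N) * ((M : ℝ) - c * N) ^ 2 := by positivity
        linarith
      · push Not at hM
        have h4 : g * N < (M : ℝ) - c * N := by linarith
        have h5 : eN N M ≤ M := eN_le N M hN3'
        have h6 : (M : ℝ) ≤ (c + g) / g * ((M : ℝ) - c * N) := by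
          have e1 : (c + g) / g * ((M : ℝ) - c * N) = ((M : ℝ) - c * N) + c / g * ((M : ℝ) - c * N) := by
            rw [add_div, div_self hgpos.ne']
            ring
          have e2 : c * N ≤ c / g * ((M : ℝ) - c * N) := by
            calc c * N = c / g * (g * N) := by field_simp
              _ ≤ c / g * ((M : ℝ) - c * N) := by gcongr
          rw [e1]
          linarith
        have h8 : (M : ℝ) - c * N ≤ ((M : ℝ) - c * N) ^ 2 / (g * N) := by
          rw [le_div_iff₀ (by positivity), sq]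
          have : 0 < (M : ℝ) - c * N := lt_trans (by positivity) h4
          gcongr
        have h9 : (c + g) / g * ((M : ℝ) - c * N) ≤
            (c + g) / g * (((M : ℝ) - c * N) ^ 2 / (g * N)) := by
          gcongr
        have h10 : (c + g) / g * (((M : ℝ) - c * N) ^ 2 / (g * N)) =
            ((c + g) / g ^ 2 / N) * ((M : ℝ) - c * N) ^ 2 := by
          field_simp
        have h11 : 0 ≤ ε / 2 * N := by positivity
        linarith
    have h12 : 3 * (M : ℝ) / N = 3 / N * M := by ring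
    linarith
  obtain ⟨hs, hq⟩ := pw_quad hl (ε / 2 * N) (3 / N) ((c + g) / g ^ 2 / N)
  have hle : EN c N ≤ ε / 2 * N + (3 / N) * (c * N) + ((c + g) / g ^ 2 / N) * (c * N) := by
    rw [← hq]
    refine Summable.tsum_le_tsum (fun M => ?_) (EN_summable hc0.le (by omega)) hs
    exact mul_le_mul_of_nonneg_left (hpt M) (pw_nonneg hl M)
  refine hle.trans ?_
  have h13 : (3 / N) * (c * N) + ((c + g) / g ^ 2 / N) * (c * N) =
      3 * c + (c + g) / g ^ 2 * c := by
    field_simp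
  have h14 : 3 * c + (c + g) / g ^ 2 * c ≤ ε / 2 * N := by
    have h1 : (3 * c + (c + g) / g ^ 2 * c) / (ε / 2) < N :=
      lt_of_lt_of_le hN2 (by exact_mod_cast hNN2)
    rw [div_lt_iff₀ (by positivity)] at h1
    linarith
  linarith

end Crest.Agent.RS
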