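import Mathlib
import Crest.Agent.MP.Defs

/-! Chunk R153H-PFIN: integrals against finite laws and the pressure as a finite expectation. -/

set_option autoImplicit false

namespace Crest.Agent.MP

open MeasureTheory
open Crest.ProbabilityR.Diluted

/-- `integral_finsetSum_measure`, `integral_smul_measure`, `integral_dirac`. -/
theorem FinLaw.integral_toMeasure {E : Type} [MeasurableSpace E] [MeasurableSingletonClass E]
    (μ : FinLaw E) (f : E → ℝ) : ∫ x, f x ∂μ.toMeasure = μ.E f := by
  unfold FinLaw.toMeasure FinLaw.E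
  rw [integral_finsetSum_measure]
  · refine Finset.sum_congr rfl fun i _ => ?_
    rw [integral_smul_measure, integral_dirac, ENNReal.toReal_ofReal (μ.w_nonneg i), smul_eq_mul]
  · intro i _
    exact (integrable_dirac (by simp)).smul_measure ENNReal.ofReal_ne_top

instance FinLaw.isFinite {E : Type} [MeasurableSpace E] (μ : FinLaw E) :
    IsFiniteMeasure μ.toMeasure := by
  refine ⟨?_⟩
  unfold FinLaw.toMeasure
  simp only [Measure.coe_finsetSum, Finset.sum_apply, Measure.smul_apply, measure_univ,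
    smul_eq_mul, mul_one]
  exact ENNReal.sum_lt_top.2 fun i _ => ENNReal.ofReal_lt_top

/-- the product law as a finite law -/
noncomputable def FinLaw.pi {E : Type} (μ : FinLaw E) (k : ℕ) : FinLaw (Fin k → E) where
  ι := Fin k → μ.ι
  fin := inferInstance
  w := fun j => ∏ a, μ.w (j a)
  x := fun j a => μ.x (j a)
  w_nonneg := fun j => Finset.prod_nonneg fun a _ => μ.w_nonneg _
  w_sum := by
    rw [← Fintype.piFinset_univ, ← Finset.prod_univ_sum]
    simp [μ.w_sum]

theorem FinLaw.pi_toMeasure {E : Type} [MeasurableSpace E] (μ : FinLaw E) (k : ℕ) :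
    (Measure.pi fun _ : Fin k => μ.toMeasure) = (μ.pi k).toMeasure := by
  refine Measure.pi_eq (fun s hs => ?_)
  have h1 : ∀ (ν : FinLaw E) (t : Set E), MeasurableSet t → ν.toMeasure t =
      ∑ i, ENNReal.ofReal (ν.w i) * t.indicator 1 (ν.x i) := by
    intro ν t ht
    unfold FinLaw.toMeasure
    simp [Measure.coe_finsetSum, Finset.sum_apply, Measure.smul_apply, Measure.dirac_apply' _ ht]
  have h2 : (μ.pi k).toMeasure (Set.univ.pi s) =
      ∑ j : Fin k → μ.ι, ENNReal.ofReal (∏ a, μ.w (j a)) *
        (Set.univ.pi s).indicator 1 (fun a => μ.x (j a)) := by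
    unfold FinLaw.toMeasure FinLaw.pi
    simp [Measure.coe_finsetSum, Finset.sum_apply, Measure.smul_apply,
      Measure.dirac_apply' _ (MeasurableSet.univ_pi hs)]
  rw [h2]
  simp_rw [h1 μ (s _) (hs _)]
  rw [Finset.prod_univ_sum, Fintype.piFinset_univ]
  refine Finset.sum_congr rfl fun j _ => ?_
  rw [Finset.prod_mul_distrib, ENNReal.ofReal_prod_of_nonneg (fun a _ => μ.w_nonneg _)]
  congr 1
  by_cases h : ∀ a, μ.x (j a) ∈ s a
  · rw [Set.indicator_of_mem (by simpa [Set.mem_univ_pi] using h)]
    rw [Finset.prod_congr rfl (fun a _ => Set.indicator_of_mem (h a) _)]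
    simp
  · rw [Set.indicator_of_notMem (by simpa [Set.mem_univ_pi] using h)]
    push Not at h
    obtain ⟨a, ha⟩ := h
    exact (Finset.prod_eq_zero (Finset.mem_univ a) (Set.indicator_of_notMem ha _)).symm

/-- the product measure is `Σ_j Π_a w (j a) • dirac (x ∘ j)` (`Measure.pi_eq` on boxes). -/
theorem FinLaw.integral_pi_toMeasure {E : Type} [MeasurableSpace E] [MeasurableSingletonClass E]
    (μ : FinLaw E) (k : ℕ) (f : (Fin k → E) → ℝ) :
    ∫ x, f x ∂(Measure.pi fun _ : Fin k => μ.toMeasure) = μ.Epow k f := by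
  rw [FinLaw.pi_toMeasure, FinLaw.integral_toMeasure]
  rfl

theorem pressure_finLaw (p : ℕ) (α : ℝ) (μ : FinLaw (Inter p)) (ν : FinLaw ℝ) (N : ℕ) :
    pressure p α μ.toMeasure ν.toMeasure N =
      (1 / (N : ℝ)) * ∑' M : ℕ, poissonWeight (α * N) M *
        μ.Epow M (fun θs => ν.Epow N (fun hs =>
          ((Fintype.card (Fin M → Fin p → Fin N) : ℝ)⁻¹ *
            ∑ idx : Fin M → Fin p → Fin N, logPartition N θs idx hs))) := by
  unfold pressure
  congr 1
  refine tsum_congr fun M => ?_
  congr 1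
  rw [FinLaw.integral_pi_toMeasure]
  congr 1
  funext θs
  rw [FinLaw.integral_pi_toMeasure]

end Crest.Agent.MP
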