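import Mathlib
import Crest.Agent.RH.Defs
import Crest.Agent.RH.PFin

/-! Chunk R153H-PRESS: the pressure of the 3-SAT law. -/

set_option autoImplicit false

namespace Crest.Agent.RS

open Finset Crest.ProbabilityR.RandomSAT Crest.ProbabilityR.Diluted Crest.Agent.MP

theorem gsat_rGC {N : ℕ} (σ : Fin N → Bool) (x : RC N) :
    GSat σ (rGC x) ↔ ∃ i, σ (x.1 i) = x.2 i := by
  unfold GSat rGC
  constructor
  · rintro ⟨y, hy, h⟩
    rw [List.mem_ofFn] at hy
    obtain ⟨i, rfl⟩ := hy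
    exact ⟨i, h⟩
  · rintro ⟨i, h⟩
    exact ⟨_, List.mem_ofFn.2 ⟨i, rfl⟩, h⟩

theorem viol_ofFn {N M : ℕ} (F : Fin M → RC N) (σ : Fin N → Bool) :
    viol ((List.ofFn F).map rGC) σ = ∑ k : Fin M, if GSat σ (rGC (F k)) then 0 else 1 := by
  induction M with
  | zero => simp [viol]
  | succ M ih =>
    rw [List.ofFn_succ, List.map_cons, viol_cons, ih, Fin.sum_univ_succ, add_comm]

/-- the interaction `log (1 + (t-1) 1(s = e))` -/
noncomputable def thetaE (t : ℝ) (e : Fin 3 → Bool) : Inter 3 :=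
  fun s => Real.log (1 + (t - 1) * ∏ ℓ, (if s ℓ = e ℓ then (1 : ℝ) else 0))

theorem exp_thetaE {t : ℝ} (ht : 0 < t) (e s : Fin 3 → Bool) :
    Real.exp (thetaE t e s) = if ∀ ℓ, s ℓ = e ℓ then t else 1 := by
  unfold thetaE
  by_cases h : ∀ ℓ, s ℓ = e ℓ
  · rw [if_pos h, Finset.prod_congr rfl (fun ℓ _ => if_pos (h ℓ))]
    simp only [prod_const_one, mul_one]
    rw [show 1 + (t - 1) = t by ring, Real.exp_log ht]
  · rw [if_neg h]
    push Not at h
    obtain ⟨ℓ, hℓ⟩ := h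
    rw [Finset.prod_eq_zero (Finset.mem_univ ℓ) (if_neg hℓ)]
    simp

theorem satEpow {t : ℝ} (ht : 0 < t) (ht1 : t < 1) (M : ℕ) (f : (Fin M → Inter 3) → ℝ) :
    (satFact t ht ht1).toLaw.Epow M f =
      ∑ j : Fin M → Unit × (Fin 3 → Bool), (1 / 8 : ℝ) ^ M * f (fun a => thetaE t (j a).2) := by
  unfold FinLaw.Epow
  change ∑ j : Fin M → Unit × (Fin 3 → Bool),
    (∏ _a : Fin M, ((1 : ℝ) * ∏ _ℓ : Fin 3, (1 / 2 : ℝ))) * f (fun a => thetaE t (j a).2) = _
  refine Finset.sum_congr rfl fun j _ => ?_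
  congr 1
  simp only [prod_const, card_univ, Fintype.card_fin, one_mul]
  norm_num

theorem nu0Epow (N : ℕ) (f : (Fin N → ℝ) → ℝ) : nu0.Epow N f = f (fun _ => 0) := by
  unfold FinLaw.Epow
  change ∑ j : Fin N → Unit, (∏ _a : Fin N, (1 : ℝ)) * f (fun _ => (0 : ℝ)) = _
  simp

/-- the reindexing -/
def reix (M N : ℕ) : (Fin M → Fin 3 → Fin N) × (Fin M → Unit × (Fin 3 → Bool)) ≃ (Fin M → RC N) where
  toFun := fun p k => (p.1 k, fun i => !((p.2 k).2 i))
  invFun := fun F => (fun k => (F k).1, fun k => ((), fun i => !((F k).2 i)))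
  left_inv := fun p => by
    simp
  right_inv := fun F => by
    simp

theorem logPartition_sat {t : ℝ} (ht : 0 < t) {M N : ℕ}
    (idx : Fin M → Fin 3 → Fin N) (j : Fin M → Unit × (Fin 3 → Bool)) :
    logPartition N (fun a => thetaE t (j a).2) idx (fun _ => 0) =
      Real.log (∑ σ : Fin N → Bool,
        t ^ (viol ((List.ofFn (reix M N (idx, j))).map rGC) σ)) := by
  unfold logPartition
  congr 1
  refine Finset.sum_congr rfl fun σ _ => ?_
  simp only [zero_mul, Finset.sum_const_zero, add_zero]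
  rw [Real.exp_sum, viol_ofFn, ← Finset.prod_pow_eq_pow_sum]
  refine Finset.prod_congr rfl fun k _ => ?_
  rw [exp_thetaE ht]
  have h1 : GSat σ (rGC (reix M N (idx, j) k)) ↔ ¬ ∀ ℓ, σ (idx k ℓ) = (j k).2 ℓ := by
    rw [gsat_rGC]
    push Not
    refine exists_congr fun ℓ => ?_
    simp only [reix, Equiv.coe_fn_mk]
    cases σ (idx k ℓ) <;> cases (j k).2 ℓ <;> simp
  by_cases h : ∀ ℓ, σ (idx k ℓ) = (j k).2 ℓ
  · rw [if_pos h, if_neg (by rw [h1]; exact not_not.2 h), pow_one]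
  · rw [if_neg h, if_pos (h1.2 h), pow_zero]

/-- `pressure_finLaw`, then `Epow` of `(satFact t).toLaw` (weights `(1/2)^3`, index `Unit × (Fin 3 → Bool)`) and the average
over `idx` combine into `lavg (RC N) M` (`lavg_eq_avg_fin`, `avg_prod`; reindex the required values by negation
`e ↦ fun i => !e i`): a clause `(v, b)` (literals `σ (v i) = b i`) is violated iff `σ (v i) = !b i` for all `i`, and
`θ (σ ∘ v) = log (1 + (t-1) Π 1(σ (v i) = e i)) = log t` if violated, `0` otherwise, so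
`Σ_σ exp (Σ_k θ_k) = Σ_σ t ^ (viol (L.map rGC) σ)`. -/
theorem pressure_sat (c t : ℝ) (ht : 0 < t) (ht1 : t < 1) (N : ℕ) :
    pressure 3 c (satFact t ht ht1).toLaw.toMeasure nu0.toMeasure N =
      (1 / (N : ℝ)) * ∑' M : ℕ, poissonWeight (c * N) M *
        lavg (RC N) M (fun L => Real.log (∑ σ : Fin N → Bool, t ^ (viol (L.map rGC) σ))) := by
  rw [pressure_finLaw]
  congr 1
  refine tsum_congr fun M => ?_
  congr 1
  simp_rw [nu0Epow]
  rw [lavg_eq_avg_fin, ← avg_equiv (reix M N), satEpow]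
  unfold avg
  rw [Fintype.sum_prod_type_right, Finset.sum_div]
  refine Finset.sum_congr rfl fun j _ => ?_
  rw [Finset.sum_congr rfl (fun idx _ => logPartition_sat ht idx j)]
  rw [Fintype.card_prod]
  have hc : (Fintype.card (Fin M → Unit × (Fin 3 → Bool)) : ℝ) = 8 ^ M := by
    rw [Fintype.card_fun, Fintype.card_fin]
    rw [Fintype.card_prod, Fintype.card_unit, one_mul, Fintype.card_fun]
    norm_num
  push_cast
  rw [hc]
  set A : ℝ := (Fintype.card (Fin M → Fin 3 → Fin N) : ℝ) with hA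
  set S : ℝ := ∑ idx : Fin M → Fin 3 → Fin N, Real.log (∑ σ : Fin N → Bool,
    t ^ (viol ((List.ofFn (reix M N (idx, j))).map rGC) σ))
  rw [div_eq_mul_inv S, mul_inv, one_div, inv_pow]
  ring

end Crest.Agent.RS
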