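import Mathlib
import Crest.Agent.RH.Defs
import Crest.Agent.RH.Press
import Crest.Agent.RH.Pois
import Crest.Agent.RH.ENb

/-! Chunk R153H-BOUNDS: pressure and the expected minimal number of violated clauses. -/

set_option autoImplicit false

namespace Crest.Agent.RS

open Finset Crest.ProbabilityR.RandomSAT Crest.ProbabilityR.Diluted Crest.Agent.MP

/-- `t ^ Nm ≤ Z ≤ 2^N t ^ Nm` (`0 < t < 1`) -/
theorem logZ_bounds {t : ℝ} (ht : 0 < t) (ht1 : t < 1) {N : ℕ} (F : List (GC N)) :
    (Nm F : ℝ) * Real.log t ≤ Real.log (∑ σ : Fin N → Bool, t ^ (viol F σ)) ∧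
    Real.log (∑ σ : Fin N → Bool, t ^ (viol F σ)) ≤ N * Real.log 2 + (Nm F : ℝ) * Real.log t := by
  obtain ⟨σ0, h0⟩ := exists_viol_eq_Nm F
  have h1 : t ^ Nm F ≤ ∑ σ : Fin N → Bool, t ^ (viol F σ) := by
    rw [← h0]
    exact Finset.single_le_sum (f := fun σ : Fin N → Bool => t ^ (viol F σ))
      (fun σ _ => (pow_pos ht _).le) (Finset.mem_univ σ0)
  have hpos : 0 < t ^ Nm F := pow_pos ht _
  have h2 : ∑ σ : Fin N → Bool, t ^ (viol F σ) ≤ 2 ^ N * t ^ Nm F := by
    have := Finset.sum_le_card_nsmul (Finset.univ : Finset (Fin N → Bool))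
      (fun σ => t ^ (viol F σ)) (t ^ Nm F)
      (fun σ _ => pow_le_pow_of_le_one ht.le ht1.le (Nm_le_viol F σ))
    simpa using this
  constructor
  · rw [← Real.log_pow]
    exact Real.log_le_log hpos h1
  · calc Real.log (∑ σ : Fin N → Bool, t ^ (viol F σ)) ≤ Real.log (2 ^ N * t ^ Nm F) :=
          Real.log_le_log (hpos.trans_le h1) h2
      _ = _ := by
          rw [Real.log_mul (by positivity) hpos.ne', Real.log_pow, Real.log_pow]

private theorem hb_main {c t : ℝ} (hc : 0 < c) (ht : 0 < t) (ht1 : t < 1) {N : ℕ} (hN : 1 ≤ N) :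
    Real.log t * EN c N ≤ (∑' M : ℕ, poissonWeight (c * N) M *
        lavg (RC N) M (fun L => Real.log (∑ σ : Fin N → Bool, t ^ (viol (L.map rGC) σ)))) ∧
    (∑' M : ℕ, poissonWeight (c * N) M *
        lavg (RC N) M (fun L => Real.log (∑ σ : Fin N → Bool, t ^ (viol (L.map rGC) σ)))) ≤
      N * Real.log 2 + Real.log t * EN c N := by
  have hNe : Nonempty (RC N) := ⟨(fun _ => ⟨0, by omega⟩, fun _ => true)⟩
  have hcN : 0 ≤ c * N := by positivity
  have hw := fun M => pw_nonneg hcN M
  have hE := EN_summable hc.le hN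
  have hW := pw_summable hcN
  have hlow : ∀ M : ℕ, Real.log t * lavg (RC N) M (fun L => ((Nm (L.map rGC) : ℕ) : ℝ)) ≤
      lavg (RC N) M (fun L => Real.log (∑ σ : Fin N → Bool, t ^ (viol (L.map rGC) σ))) := by
    intro M
    rw [← lavg_mul_left]
    refine lavg_mono fun L => ?_
    have := (logZ_bounds ht ht1 (L.map (rGC (N := N)))).1
    rwa [mul_comm] at this
  have hup : ∀ M : ℕ,
      lavg (RC N) M (fun L => Real.log (∑ σ : Fin N → Bool, t ^ (viol (L.map rGC) σ))) ≤
      N * Real.log 2 + Real.log t * lavg (RC N) M (fun L => ((Nm (L.map rGC) : ℕ) : ℝ)) := by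
    intro M
    rw [← lavg_mul_left]
    have h1 := lavg_const (α := RC N) M ((N : ℝ) * Real.log 2)
    rw [← h1, ← lavg_add]
    refine lavg_mono fun L => ?_
    have := (logZ_bounds ht ht1 (L.map (rGC (N := N)))).2
    rwa [mul_comm (Nm _ : ℝ)] at this
  set f : ℕ → ℝ := fun M => lavg (RC N) M
    (fun L => Real.log (∑ σ : Fin N → Bool, t ^ (viol (L.map rGC) σ))) with hf
  set g : ℕ → ℝ := fun M => lavg (RC N) M (fun L => ((Nm (L.map rGC) : ℕ) : ℝ)) with hg
  have hG : Summable (fun M => Real.log t * (poissonWeight (c * N) M * g M)) := hE.mul_left _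
  have hC : Summable (fun M => (N * Real.log 2) * poissonWeight (c * N) M) := hW.mul_left _
  have hD : Summable (fun M => poissonWeight (c * N) M * f M -
      Real.log t * (poissonWeight (c * N) M * g M)) := by
    refine Summable.of_nonneg_of_le (fun M => ?_) (fun M => ?_) hC
    · have := mul_le_mul_of_nonneg_left (hlow M) (hw M)
      have e : poissonWeight (c * N) M * (Real.log t * g M) =
        Real.log t * (poissonWeight (c * N) M * g M) := by ring
      have h3 : poissonWeight (c * N) M * (Real.log t * g M) ≤ poissonWeight (c * N) M * f M := this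
      linarith
    · have := mul_le_mul_of_nonneg_left (hup M) (hw M)
      have h3 : poissonWeight (c * N) M * f M ≤
        poissonWeight (c * N) M * (N * Real.log 2 + Real.log t * g M) := this
      have e : poissonWeight (c * N) M * (N * Real.log 2 + Real.log t * g M) =
        (N * Real.log 2) * poissonWeight (c * N) M +
          Real.log t * (poissonWeight (c * N) M * g M) := by ring
      linarith
  have hF : Summable (fun M => poissonWeight (c * N) M * f M) := by
    have := hD.add hG
    refine this.congr fun M => ?_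
    ring
  have hEN : EN c N = ∑' M : ℕ, poissonWeight (c * N) M * g M := rfl
  rw [hEN, ← tsum_mul_left]
  constructor
  · refine Summable.tsum_le_tsum (fun M => ?_) hG hF
    have := mul_le_mul_of_nonneg_left (hlow M) (hw M)
    calc Real.log t * (poissonWeight (c * N) M * g M) =
        poissonWeight (c * N) M * (Real.log t * g M) := by ring
      _ ≤ _ := this
  · have h1 : (N : ℝ) * Real.log 2 = ∑' M : ℕ, (N * Real.log 2) * poissonWeight (c * N) M := by
      rw [tsum_mul_left, pw_sum hcN, mul_one]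
    have h2 : ∑' M : ℕ, (N * Real.log 2) * poissonWeight (c * N) M +
        ∑' M : ℕ, Real.log t * (poissonWeight (c * N) M * g M) =
        ∑' M : ℕ, ((N * Real.log 2) * poissonWeight (c * N) M +
          Real.log t * (poissonWeight (c * N) M * g M)) := (Summable.tsum_add hC hG).symm
    rw [h1, h2]
    refine Summable.tsum_le_tsum (fun M => ?_) hF (hC.add hG)
    have := mul_le_mul_of_nonneg_left (hup M) (hw M)
    calc poissonWeight (c * N) M * f M ≤
        poissonWeight (c * N) M * (N * Real.log 2 + Real.log t * g M) := this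
      _ = _ := by ring

theorem pressure_ge {c t : ℝ} (hc : 0 < c) (ht : 0 < t) (ht1 : t < 1) {N : ℕ} (hN : 1 ≤ N) :
    Real.log t * (EN c N / N) ≤ pressure 3 c (satFact t ht ht1).toLaw.toMeasure nu0.toMeasure N := by
  rw [pressure_sat]
  have hNpos : (0 : ℝ) < N := by exact_mod_cast (by omega : 0 < N)
  have h := mul_le_mul_of_nonneg_left (hb_main hc ht ht1 hN).1 (by positivity : 0 ≤ 1 / (N : ℝ))
  calc Real.log t * (EN c N / N) = 1 / (N : ℝ) * (Real.log t * EN c N) := by ring
    _ ≤ _ := h

theorem pressure_le {c t : ℝ} (hc : 0 < c) (ht : 0 < t) (ht1 : t < 1) {N : ℕ} (hN : 1 ≤ N) :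
    pressure 3 c (satFact t ht ht1).toLaw.toMeasure nu0.toMeasure N ≤
      Real.log 2 + Real.log t * (EN c N / N) := by
  rw [pressure_sat]
  have hNpos : (0 : ℝ) < N := by exact_mod_cast (by omega : 0 < N)
  have h := mul_le_mul_of_nonneg_left (hb_main hc ht ht1 hN).2 (by positivity : 0 ≤ 1 / (N : ℝ))
  refine h.trans_eq ?_
  field_simp

end Crest.Agent.RS
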