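import Mathlib
import Crest.Agent.RH.Bounds
import Crest.Agent.MP.UMain
import Crest.Agent.MP.FMain
import Crest.Agent.MP.TMain

/-! Upper side of S0218: trials with negative functional certify `α ≤ c`. -/

set_option autoImplicit false

namespace Crest.Agent.RS

open Finset Crest.ProbabilityR.RandomSAT Crest.ProbabilityR.Diluted Crest.Agent.MP Filter

theorem half_pow_lt (j : ℕ) : (1 / 2 : ℝ) ^ (j + 1) < 1 := by
  calc (1 / 2 : ℝ) ^ (j + 1) ≤ (1 / 2 : ℝ) ^ 1 :=
        pow_le_pow_of_le_one (by norm_num) (by norm_num) (by omega)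
    _ < 1 := by norm_num

/-- the law with `t = 2^{-(j+1)}` -/
noncomputable def satLaw (j : ℕ) : FactLaw 3 :=
  satFact ((1 / 2 : ℝ) ^ (j + 1)) (by positivity) (half_pow_lt j)

/-- soundness -/
theorem hi_sound {α : ℝ} (hα : IsSharpThreshold (satProb 3) α) {c : ℝ} (hc0 : 0 < c) (j : ℕ)
    (t : FinTrial) (h : t.A 3 c (satLaw j).toLaw nu0 < 0) : α ≤ c := by
  by_contra hlt
  push Not at hlt
  set A := t.A 3 c (satLaw j).toLaw nu0 with hA
  set τ : ℝ := (1 / 2 : ℝ) ^ (j + 1) with hτ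
  have hlog : Real.log τ < 0 := Real.log_neg (by positivity) (half_pow_lt j)
  obtain ⟨N1, hN1⟩ := EN_below hα hlt hc0 (ε := A / (2 * Real.log τ)) (by
    apply div_pos_of_neg_of_neg h; linarith)
  set N := max N1 1
  have hN : 1 ≤ N := le_max_right _ _
  have h1 := hN1 N (le_max_left _ _)
  have hNpos : (0 : ℝ) < N := by exact_mod_cast hN
  have h2 := pressure_ge hc0 (t := τ) (by positivity) (half_pow_lt j) hN
  have h3 : pressure 3 c (satLaw j).toLaw.toMeasure nu0.toMeasure N ≤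
      trialFunctional 3 c (satLaw j).toLaw.toMeasure nu0.toMeasure t.r t.m t.Xu :=
    upper_bound 3 (by norm_num) c hc0 (satLaw j) (Or.inr (by
      intro e s
      change (0 : ℝ) ≤ if s = e then 1 else 0
      split_ifs <;> norm_num)) nu0 t N hN
  rw [trial_value 3 (by norm_num) c hc0] at h3
  have h4 : EN c N / N ≤ A / (2 * Real.log τ) := by
    rw [div_le_iff₀ hNpos]; exact h1
  have h5 : A / 2 ≤ Real.log τ * (EN c N / N) := by
    have hne : Real.log τ ≠ 0 := hlog.ne
    have : Real.log τ * (A / (2 * Real.log τ)) = A / 2 := by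
      rw [mul_div_assoc', mul_comm (Real.log τ) A, mul_div_mul_right _ _ hne]
    rw [← this]
    exact mul_le_mul_of_nonpos_left h4 hlog.le
  have h6 : Real.log τ * (EN c N / N) ≤ A := h2.trans h3
  linarith

/-- completeness -/
theorem hi_complete {α : ℝ} (hα : IsSharpThreshold (satProb 3) α) {c : ℝ} (hc0 : 0 < c)
    (hc : α < c) : ∃ (j : ℕ) (t : FinTrial), t.A 3 c (satLaw j).toLaw nu0 < 0 := by
  obtain ⟨η, N1, hη, hN1⟩ := EN_above hα hc hc0
  -- choose j with (j+1) * log 2 * η > log 2 + 2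
  obtain ⟨j, hj⟩ := exists_nat_gt ((Real.log 2 + 2) / (Real.log 2 * η))
  have hl2 : 0 < Real.log 2 := Real.log_pos (by norm_num)
  refine ⟨j, ?_⟩
  obtain ⟨P, hP, hlow⟩ := exists_limitModel 3 (by norm_num) c hc0 (satLaw j).toLaw nu0
    (fun π f => (satLaw j).sym π f)
  obtain ⟨t, ht⟩ := exists_trial hP 3 c hc0 (satLaw j).toLaw nu0 (ε := 1 / 2) (by norm_num)
  refine ⟨t, ?_⟩
  obtain ⟨N, hN, hN'⟩ := ((hlow (1 / 2) (by norm_num)).and (eventually_ge_atTop (max N1 1))).exists
  have hN1' : 1 ≤ N := le_trans (le_max_right _ _) hN'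
  have hNpos : (0 : ℝ) < N := by exact_mod_cast hN1'
  have h1 := hN1 N (le_trans (le_max_left _ _) hN')
  have h2 := pressure_le hc0 (t := (1 / 2 : ℝ) ^ (j + 1)) (by positivity) (half_pow_lt j) hN1'
  have hlog : Real.log ((1 / 2 : ℝ) ^ (j + 1)) = -((j + 1 : ℝ) * Real.log 2) := by
    rw [Real.log_pow, one_div, Real.log_inv]
    push_cast
    ring
  rw [hlog] at h2
  have h3 : η ≤ EN c N / N := by
    rw [le_div_iff₀ hNpos]; exact h1
  have h4 : (Real.log 2 + 2) < (j + 1 : ℝ) * Real.log 2 * η := by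
    rw [div_lt_iff₀ (by positivity)] at hj
    nlinarith [mul_pos hl2 hη]
  have h5 : (j + 1 : ℝ) * Real.log 2 * η ≤ (j + 1 : ℝ) * Real.log 2 * (EN c N / N) := by
    gcongr
  have h6 : pressure 3 c (satLaw j).toLaw.toMeasure nu0.toMeasure N < -2 := by
    refine lt_of_le_of_lt h2 ?_
    linarith
  linarith

end Crest.Agent.RS
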